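import Vale.Agent.P159.H950.F7

/-!
Gaussian limit of wired polyominoes with harmonic boundary spins.
-/

set_option linter.all false
set_option autoImplicit false

open MeasureTheory Filter Topology
open scoped BigOperators

namespace Vale.Agent.P159.R2.H130

open Vale.Agent.P159 Vale.Agent.P159.UJ Vale.Agent.P159.H950

/-- the region of the polyomino `P` (a set of unit squares of `ℤ²`) at scale `N` -/
noncomputable def PR (P : Finset (ℤ × ℤ)) (N : ℕ) : Finset (ℤ × ℤ) :=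
  P.biUnion fun k => blk (crn N k) N

theorem mem_PR {P : Finset (ℤ × ℤ)} {N : ℕ} (hN : 1 ≤ N) {c : ℤ × ℤ} :
    c ∈ PR P N ↔ tl N c ∈ P := by
  unfold PR
  rw [Finset.mem_biUnion]
  constructor
  · rintro ⟨k, hk, hc⟩
    rw [mem_tile hN] at hc
    rwa [hc]
  · intro h
    exact ⟨tl N c, h, (mem_tile hN).2 rfl⟩

theorem PR_union {P Q : Finset (ℤ × ℤ)} (N : ℕ) : PR (P ∪ Q) N = PR P N ∪ PR Q N := by
  classical
  unfold PR
  rw [Finset.union_biUnion]

theorem PR_disj {P Q : Finset (ℤ × ℤ)} (h : Disjoint P Q) {N : ℕ} (hN : 1 ≤ N) :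
    Disjoint (PR P N) (PR Q N) := by
  rw [Finset.disjoint_left] at h ⊢
  intro c h1 h2
  rw [mem_PR hN] at h1 h2
  exact h h1 h2

theorem PR_single (k : ℤ × ℤ) (N : ℕ) : PR {k} N = blk (crn N k) N := by
  unfold PR
  simp

theorem nR_union {R S : Finset (ℤ × ℤ)} (h : Disjoint R S) (y : Fld) :
    nR (R ∪ S) y = nR R y + nR S y := by
  unfold nR
  rw [Finset.sum_union h]

theorem nR_PR {P : Finset (ℤ × ℤ)} {N : ℕ} (hN : 1 ≤ N) (y : Fld) :
    nR (PR P N) y = ∑ k ∈ P, nR (blk (crn N k) N) y := by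
  unfold nR PR
  rw [Finset.sum_biUnion]
  intro k _ k' _ hne
  rw [Function.onFun, Finset.disjoint_left]
  intro c h1 h2
  rw [mem_tile hN] at h1 h2
  exact hne (h1.symm.trans h2)

theorem PR_filter {P : Finset (ℤ × ℤ)} {N : ℕ} (hN : 1 ≤ N) {k : ℤ × ℤ} (hk : k ∈ P) :
    ((PR P N).filter fun c => tl N c = k) = blk (crn N k) N := by
  ext c
  rw [Finset.mem_filter, mem_PR hN, mem_tile hN]
  constructor
  · exact fun h => h.2
  · intro h
    exact ⟨by rw [h]; exact hk, h⟩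

theorem card_PR_le (P : Finset (ℤ × ℤ)) (N : ℕ) : ((PR P N).card : ℝ) ≤ P.card * (N : ℝ) ^ 2 := by
  have h : (PR P N).card ≤ P.card * N ^ 2 := by
    unfold PR
    refine Finset.card_biUnion_le.trans ?_
    rw [Finset.sum_congr rfl fun k _ => card_blk (crn N k) N, Finset.sum_const, smul_eq_mul]
  exact_mod_cast h

/-- upper bound by tiles -/
theorem rR_PR {b : ℝ} (hb : 0 ≤ b) {P : Finset (ℤ × ℤ)} {N : ℕ} (hN : 1 ≤ N) (y : Fld) :
    rR b (PR P N) y ≤ ∏ k ∈ P, rR b (blk (crn N k) N) y := by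
  refine (rR_tile hb (PR P N) P (tl N) (fun c hc => (mem_PR hN).1 hc) y).trans (le_of_eq ?_)
  exact Finset.prod_congr rfl fun k hk => by rw [PR_filter hN hk]

/-- the square `[-K, K)²` of unit squares -/
noncomputable def sqK (K : ℕ) : Finset (ℤ × ℤ) := Finset.Ico (-(K : ℤ)) K ×ˢ Finset.Ico (-(K : ℤ)) K

theorem mem_sqK {K : ℕ} {k : ℤ × ℤ} : k ∈ sqK K ↔ -(K : ℤ) ≤ k.1 ∧ k.1 < K ∧ -(K : ℤ) ≤ k.2 ∧
    k.2 < K := by
  unfold sqK
  rw [Finset.mem_product, Finset.mem_Ico, Finset.mem_Ico]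
  tauto

theorem exists_sqK (P : Finset (ℤ × ℤ)) : ∃ K : ℕ, P ⊆ sqK K := by
  refine ⟨∑ k ∈ P, (k.1.natAbs + k.2.natAbs + 1), fun k hk => ?_⟩
  have h : k.1.natAbs + k.2.natAbs + 1 ≤ ∑ k ∈ P, (k.1.natAbs + k.2.natAbs + 1) :=
    Finset.single_le_sum (f := fun k : ℤ × ℤ => k.1.natAbs + k.2.natAbs + 1)
      (fun _ _ => Nat.zero_le _) hk
  rw [mem_sqK]
  omega

theorem PR_sqK {K N : ℕ} (hN : 1 ≤ N) :
    PR (sqK K) N = blk (-((K : ℤ) * N), -((K : ℤ) * N)) (2 * K * N) := by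
  have hN0 : (0 : ℤ) < N := by exact_mod_cast hN
  ext c
  rw [mem_PR hN, mem_sqK, mem_blk]
  unfold tl
  simp only
  have e1 : ∀ a : ℤ, -(K : ℤ) ≤ a / N ↔ -((K : ℤ) * N) ≤ a := by
    intro a
    rw [Int.le_ediv_iff_mul_le hN0]
    rw [neg_mul]
  have e2 : ∀ a : ℤ, a / N < K ↔ a < (K : ℤ) * N := by
    intro a
    rw [Int.ediv_lt_iff_lt_mul hN0]
  rw [e1, e1, e2, e2]
  push_cast
  constructor
  · rintro ⟨h1, h2, h3, h4⟩
    refine ⟨h1, by linarith, h3, by linarith⟩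
  · rintro ⟨h1, h2, h3, h4⟩
    refine ⟨h1, by linarith, h3, by linarith⟩

theorem blk_sub_bx' {K N : ℕ} : blk (-((K : ℤ) * N), -((K : ℤ) * N)) (2 * K * N) ⊆ bx (K * N) := by
  intro c hc
  rw [mem_blk] at hc
  rw [mem_bx]
  push_cast at hc ⊢
  obtain ⟨h1, h2, h3, h4⟩ := hc
  refine ⟨h1, ?_, h3, ?_⟩ <;> linarith

theorem tile_sub_bx {K N : ℕ} {k : ℤ × ℤ} (hk : k ∈ sqK K) (hN : 1 ≤ N) :
    blk (crn N k) N ⊆ bx (K * N) := by
  refine subset_trans ?_ (blk_sub_bx' (K := K) (N := N))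
  rw [← PR_sqK hN]
  intro c hc
  rw [mem_PR hN]
  rw [mem_tile hN] at hc
  rwa [hc]

/-- the defect of a polyomino is small along the kernel -/
theorem ker_PR {b Y : ℝ} (m : Mod b Y) {f : SF} (hv : VF f) (hk : Ker b Y f)
    (P : Finset (ℤ × ℤ)) {ε : ℝ} (hε : 0 < ε) :
    ∀ᶠ N : ℕ in atTop, Y * (nR (PR P N) (f N) / (N : ℝ) ^ 2) -
      qR b (PR P N) (f N) / (N : ℝ) ^ 2 ≤ ε := by
  classical
  obtain ⟨K, hK⟩ := exists_sqK P
  set Q := sqK K \ P with hQ
  obtain ⟨δ, hδ0, hδ⟩ : ∃ δ : ℝ, 0 < δ ∧ (Q.card + 1) * δ ≤ ε := by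
    refine ⟨ε / (Q.card + 1), by positivity, le_of_eq ?_⟩
    field_simp
  filter_upwards [ubq_blk m.hb m.lim hv K hδ0, hk K δ hδ0, eventually_ge_atTop 1]
    with N h1 h2 hN
  have hNp : (0 : ℝ) < (N : ℝ) ^ 2 := by
    have : (0 : ℝ) < N := by exact_mod_cast hN
    positivity
  have hB := h2 _ _ (blk_sub_bx' (K := K) (N := N))
  rw [← PR_sqK hN] at hB
  have hdisj : Disjoint P Q := Finset.disjoint_sdiff
  have hun : P ∪ Q = sqK K := Finset.union_sdiff_of_subset hK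
  -- norms
  have hn : nR (PR (sqK K) N) (f N) = nR (PR P N) (f N) + ∑ k ∈ Q, nR (blk (crn N k) N) (f N) := by
    rw [← hun, PR_union, nR_union (PR_disj hdisj hN), nR_PR hN (P := Q)]
  -- forms
  have hq : qR b (PR (sqK K) N) (f N) ≤ qR b (PR P N) (f N) +
      ∑ k ∈ Q, qR b (blk (crn N k) N) (f N) := by
    have h := qR_tile m.hb.le (PR (sqK K) N) (insert none (Q.map ⟨some, Option.some_injective _⟩))
      (fun c => if tl N c ∈ P then none else some (tl N c)) (fun c hc => by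
        rw [mem_PR hN] at hc
        by_cases h1 : tl N c ∈ P
        · simp [h1]
        · simp only [h1, if_false, Finset.mem_insert, reduceCtorEq, Finset.mem_map,
            Function.Embedding.coeFn_mk, Option.some.injEq, exists_eq_right, false_or]
          rw [hQ, Finset.mem_sdiff]
          exact ⟨hc, h1⟩) (f N)
    refine h.trans (le_of_eq ?_)
    rw [Finset.sum_insert (by simp), Finset.sum_map]
    congr 1
    · congr 1
      ext c
      rw [Finset.mem_filter, mem_PR hN, mem_PR hN]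
      constructor
      · rintro ⟨_, h3⟩
        by_contra h4
        simp [h4] at h3
      · intro h3
        exact ⟨hK h3, by simp [h3]⟩
    · refine Finset.sum_congr rfl fun k hk' => ?_
      congr 1
      ext c
      rw [Finset.mem_filter, mem_PR hN, mem_tile hN]
      rw [hQ, Finset.mem_sdiff] at hk'
      constructor
      · rintro ⟨_, h3⟩
        by_cases h4 : tl N c ∈ P
        · simp [h4] at h3
        · simpa [h4] using h3
      · intro h3
        rw [h3]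
        refine ⟨hk'.1, by simp [hk'.2]⟩
  have hs : ∑ k ∈ Q, qR b (blk (crn N k) N) (f N) ≤
      ∑ k ∈ Q, (Y * nR (blk (crn N k) N) (f N) + δ * (N : ℝ) ^ 2) := by
    refine Finset.sum_le_sum fun k hk' => ?_
    have h3 := h1 (crn N k) N (tile_sub_bx (by
      rw [hQ, Finset.mem_sdiff] at hk'
      exact hk'.1) hN)
    rw [div_le_iff₀ hNp, add_mul, mul_assoc, div_mul_cancel₀ _ hNp.ne'] at h3
    exact h3
  rw [Finset.sum_add_distrib, ← Finset.mul_sum, Finset.sum_const, nsmul_eq_mul] at hs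
  have hB' : Y * nR (PR (sqK K) N) (f N) - qR b (PR (sqK K) N) (f N) ≤ δ * (N : ℝ) ^ 2 := by
    rw [← mul_div_assoc, ← sub_div, div_le_iff₀ hNp] at hB
    exact hB
  rw [hn] at hB'
  rw [← mul_div_assoc, ← sub_div, div_le_iff₀ hNp]
  have h5 : (Q.card + 1) * δ * (N : ℝ) ^ 2 ≤ ε * (N : ℝ) ^ 2 :=
    mul_le_mul_of_nonneg_right hδ hNp.le
  nlinarith only [hB', hs, hq, h5]

/-- upper bound for the polyomino -/
theorem ub_PR {b Y : ℝ} (m : Mod b Y) {f : SF} (hv : VF f) (P : Finset (ℤ × ℤ)) {ε : ℝ}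
    (hε : 0 < ε) :
    ∀ᶠ N : ℕ in atTop, rR b (PR P N) ((N : ℝ)⁻¹ • f N) ≤
      Real.exp (Y * (nR (PR P N) (f N) / (N : ℝ) ^ 2) / 2 + ε) := by
  obtain ⟨K, hK⟩ := exists_sqK P
  obtain ⟨δ, hδ0, hδ⟩ : ∃ δ : ℝ, 0 < δ ∧ P.card * δ ≤ ε := by
    refine ⟨ε / (P.card + 1), by positivity, ?_⟩
    rw [mul_div_assoc', div_le_iff₀ (by positivity)]
    nlinarith only [hε]
  filter_upwards [ub_asym m.hb m.lim hv K hδ0, eventually_ge_atTop 1] with N h1 hN
  refine (rR_PR m.hb.le hN _).trans ?_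
  have h2 : ∏ k ∈ P, rR b (blk (crn N k) N) ((N : ℝ)⁻¹ • f N) ≤
      ∏ k ∈ P, Real.exp (Y * (nR (blk (crn N k) N) (f N) / (N : ℝ) ^ 2) / 2 + δ) := by
    refine Finset.prod_le_prod (fun k _ => (rR_pos m.hb.le _ _).le) fun k hk => ?_
    have h3 := h1 (crn N k) 0 N 0 (tile_sub_bx (hK hk) hN)
    rwa [blk_zero, Finset.sdiff_empty] at h3
  refine h2.trans ?_
  rw [← Real.exp_sum, Real.exp_le_exp, Finset.sum_add_distrib, Finset.sum_const, nsmul_eq_mul,
    ← Finset.sum_div, ← Finset.mul_sum, ← Finset.sum_div, ← nR_PR hN]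
  linarith

/-- translate of a macroscopic field -/
def shF (k : ℤ × ℤ) (F : MF) : MF := fun x y d => F (x + k.1) (y + k.2) d

/-- energy of a field in the polyomino -/
noncomputable def enP (P : Finset (ℤ × ℤ)) (F : MF) : ℝ := ∑ k ∈ P, en (shF k F)

theorem blk_image (N : ℕ) (k : ℤ × ℤ) (w : ℤ × ℤ → ℝ) :
    ∑ c ∈ blk (crn N k) N, w c = ∑ c ∈ blk 0 N, w (c + crn N k) := by
  symm
  refine Finset.sum_nbij (fun c => c + crn N k) ?_ ?_ ?_ (fun _ _ => rfl)
  · intro c hc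
    rw [mem_blk] at hc ⊢
    simp only [Prod.fst_zero, Prod.snd_zero, Prod.fst_add, Prod.snd_add] at hc ⊢
    omega
  · intro a _ c _ h
    exact add_right_cancel h
  · intro c hc
    refine ⟨c - crn N k, ?_, sub_add_cancel _ _⟩
    rw [Finset.mem_coe, mem_blk] at hc ⊢
    simp only [Prod.fst_zero, Prod.snd_zero, Prod.fst_sub, Prod.snd_sub] at hc ⊢
    omega

theorem smp_shift (F : MF) {N : ℕ} (hN : 1 ≤ N) (k c : ℤ × ℤ) (d : Bool) :
    smp F N (c + crn N k) d = smp (shF k F) N c d := by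
  have hN0 : (N : ℝ) ≠ 0 := by
    have : (0 : ℝ) < N := by exact_mod_cast hN
    exact this.ne'
  have e : ∀ a z : ℤ, (((a + (N : ℤ) * z : ℤ) : ℝ) + 1 / 2) / N = ((a : ℝ) + 1 / 2) / N + z := by
    intro a z
    push_cast
    field_simp
    ring
  unfold smp shF crn
  simp only [Prod.fst_add, Prod.snd_add]
  rw [e, e]

theorem CF.sh {F : MF} (hF : CF F) (k : ℤ × ℤ) : CF (shF k F) := by
  intro d
  have h : Continuous fun p : ℝ × ℝ => ((p.1 + k.1, p.2 + k.2) : ℝ × ℝ) := by fun_prop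
  exact (hF d).comp h

theorem nR_PR_lim {F : MF} (hF : CF F) (P : Finset (ℤ × ℤ)) :
    Tendsto (fun N : ℕ => nR (PR P N) (smp F N) / (N : ℝ) ^ 2) atTop (𝓝 (enP P F)) := by
  have h : Tendsto (fun N : ℕ => ∑ k ∈ P, nR (blk 0 N) (smp (shF k F) N) / (N : ℝ) ^ 2) atTop
      (𝓝 (enP P F)) := tendsto_finset_sum _ fun k _ => nR_lim (CF.sh hF k)
  refine h.congr' ?_
  filter_upwards [eventually_ge_atTop 1] with N hN
  rw [nR_PR hN, Finset.sum_div]
  refine Finset.sum_congr rfl fun k _ => ?_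
  congr 1
  unfold nR
  rw [blk_image]
  refine Finset.sum_congr rfl fun c _ => ?_
  unfold sq2
  rw [smp_shift F hN, smp_shift F hN]

/-- limit of the partition function of a polyomino at imaginary twist -/
theorem imag_lim_PR {b Y : ℝ} (m : Mod b Y) {F : MF} (hF : CF F) (hk : Ker b Y (smp F))
    (P : Finset (ℤ × ℤ)) :
    Tendsto (fun N : ℕ => rR b (PR P N) ((N : ℝ)⁻¹ • smp F N)) atTop
      (𝓝 (Real.exp (Y * enP P F / 2))) := by
  have hv := vf_of_cont hF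
  have hlog : Tendsto (fun N : ℕ => Real.log (rR b (PR P N) ((N : ℝ)⁻¹ • smp F N))) atTop
      (𝓝 (Y * enP P F / 2)) := by
    have hn : Tendsto (fun N : ℕ => Y * (nR (PR P N) (smp F N) / (N : ℝ) ^ 2) / 2) atTop
        (𝓝 (Y * enP P F / 2)) := ((nR_PR_lim hF P).const_mul Y).div_const 2
    have hdiff : Tendsto (fun N : ℕ => Real.log (rR b (PR P N) ((N : ℝ)⁻¹ • smp F N)) -
        Y * (nR (PR P N) (smp F N) / (N : ℝ) ^ 2) / 2) atTop (𝓝 0) := by
      rw [Metric.tendsto_atTop]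
      intro ε hε
      have hε2 : 0 < ε / 2 := by positivity
      obtain ⟨N0, hN0⟩ := eventually_atTop.1 ((ub_PR m hv P hε2).and (ker_PR m hv hk P hε))
      refine ⟨N0, fun N hN => ?_⟩
      obtain ⟨g1, g2⟩ := hN0 N hN
      have g3 := rR_ge m.hb.le (PR P N) ((N : ℝ)⁻¹ • smp F N)
      have g4 := rR_pos m.hb.le (PR P N) ((N : ℝ)⁻¹ • smp F N)
      rw [qR_div] at g3
      obtain ⟨t, ht⟩ : ∃ t, t = rR b (PR P N) ((N : ℝ)⁻¹ • smp F N) := ⟨_, rfl⟩
      rw [← ht] at g1 g3 g4 ⊢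
      have l1 := (Real.log_le_iff_le_exp g4).2 g1
      have l2 := (Real.le_log_iff_exp_le g4).2 g3
      rw [Real.dist_eq, sub_zero, abs_lt]
      constructor <;> linarith
    have := hdiff.add hn
    simpa using this
  have := (Real.continuous_exp.tendsto _).comp hlog
  refine this.congr fun N => ?_
  exact Real.exp_log (rR_pos m.hb.le _ _)

theorem enP_smul (P : Finset (ℤ × ℤ)) (F : MF) (s : ℝ) :
    enP P (fun x y d => s * F x y d) = s ^ 2 * enP P F := by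
  unfold enP
  rw [Finset.mul_sum]
  refine Finset.sum_congr rfl fun k _ => ?_
  exact en_smul (shF k F) s

theorem imag_lim_PR' {b Y : ℝ} (m : Mod b Y) {F : MF} (hF : DF F) (P : Finset (ℤ × ℤ)) (s : ℝ) :
    Tendsto (fun N : ℕ => rR b (PR P N) ((s / N) • smp F N)) atTop
      (𝓝 (Real.exp (s ^ 2 * (Y * enP P F) / 2))) := by
  have h := imag_lim_PR m (hF.smul s).cont (DF.ker m (hF.smul s)) P
  rw [enP_smul] at h
  have e : Y * (s ^ 2 * enP P F) / 2 = s ^ 2 * (Y * enP P F) / 2 := by ring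
  rw [e] at h
  refine h.congr fun N => ?_
  congr 1
  funext c d
  simp only [Pi.smul_apply, smul_eq_mul, smp]
  ring

theorem sum_cosh_le_PR {b : ℝ} (hb : 0 < b) {N : ℕ} (hN : 1 ≤ N) (P : Finset (ℤ × ℤ)) {C m : ℝ}
    {u : KR (PR P N) → ℝ} (hu : ∀ e, |u e| ≤ m / N) (hCm : |C| * m ≤ N) :
    ∑ e : KR (PR P N), b / 2 * (Real.cosh (C * u e) - 1) ≤ 4 * P.card * b * (C * m) ^ 2 := by
  have hN0 : (0 : ℝ) < N := by exact_mod_cast hN
  have h1 : ∀ e ∈ (Finset.univ : Finset (KR (PR P N))),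
      b / 2 * (Real.cosh (C * u e) - 1) ≤ b * (C * m) ^ 2 / (N : ℝ) ^ 2 := by
    intro e _
    have h2 : |C * u e| ≤ |C| * m / N := by
      rw [abs_mul, mul_div_assoc]
      exact mul_le_mul_of_nonneg_left (hu e) (abs_nonneg _)
    have h3 : |C| * m / N ≤ 1 := (div_le_one hN0).2 hCm
    have h4 := cosh_le2 (h2.trans h3)
    have h5 : (C * u e) ^ 2 ≤ (C * m) ^ 2 / (N : ℝ) ^ 2 := by
      have h8 := pow_le_pow_left₀ (abs_nonneg _) h2 2
      have e2 : (|C| * m / N) ^ 2 = (C * m) ^ 2 / (N : ℝ) ^ 2 := by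
        rw [div_pow, mul_pow, mul_pow, sq_abs]
      rw [sq_abs, e2] at h8
      exact h8
    have h6 : b / 2 * (Real.cosh (C * u e) - 1) ≤ b / 2 * (2 * (C * u e) ^ 2) :=
      mul_le_mul_of_nonneg_left h4 (by positivity)
    have h7 : b * (C * u e) ^ 2 ≤ b * ((C * m) ^ 2 / (N : ℝ) ^ 2) :=
      mul_le_mul_of_nonneg_left h5 hb.le
    have e1 : b * ((C * m) ^ 2 / (N : ℝ) ^ 2) = b * (C * m) ^ 2 / (N : ℝ) ^ 2 := by ring
    linarith
  refine (Finset.sum_le_sum h1).trans ?_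
  rw [Finset.sum_const, nsmul_eq_mul, Finset.card_univ, card_KR]
  have h2 := card_PR_le P N
  have h3 : 4 * ((PR P N).card : ℝ) * (b * (C * m) ^ 2 / (N : ℝ) ^ 2) ≤
      4 * (P.card * (N : ℝ) ^ 2) * (b * (C * m) ^ 2 / (N : ℝ) ^ 2) := by
    have : 0 ≤ b * (C * m) ^ 2 / (N : ℝ) ^ 2 := by positivity
    gcongr
  refine h3.trans (le_of_eq ?_)
  field_simp

/-- approximating twists -/
def ApxP (P : Finset (ℤ × ℤ)) (F : MF) (t : ∀ N : ℕ, KR (PR P N) → ℝ) : Prop :=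
  ∀ ε : ℝ, 0 < ε → ∀ᶠ N : ℕ in atTop, ∀ e : KR (PR P N), |N * t N e - smp F N e.1 e.2.1| ≤ ε

/-- the limits at imaginary twists -/
theorem imag_tw_PR {b : ℝ} (hb : 0 < b) {F : MF} (hF : DF F) (P : Finset (ℤ × ℤ))
    {t : ∀ N : ℕ, KR (PR P N) → ℝ} (ht : ApxP P F t) (s : ℝ) :
    Tendsto (fun N => lr muInf (fun _ : KR (PR P N) => b / 2) (chiR (PR P N)) (s • t N)) atTop
      (𝓝 (s ^ 2 * (helicity b * enP P F) / 2)) := by
  have hm := mod_helicity hb
  have hJ : ∀ (N : ℕ) (_e : KR (PR P N)), 0 ≤ b / 2 := fun _ _ => by positivity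
  refine pert_lim muInf G_div2 (fun N _ => b / 2) (fun N => chiR (PR P N)) hJ
    (fun N e => (N : ℝ)⁻¹ * smp F N e.1 e.2.1) t (fun s => ?_) (fun C => ?_) s
  · have h := (imag_lim_PR' hm hF P s).log (Real.exp_pos _).ne'
    rw [Real.log_exp] at h
    refine h.congr fun N => ?_
    unfold lr rR
    congr 2
    funext e
    simp only [twR, Pi.smul_apply, smul_eq_mul]
    ring
  · rw [Metric.tendsto_atTop]
    intro ε hε
    obtain ⟨ε', hε'0, hε'1, hε'2⟩ : ∃ ε' : ℝ, 0 < ε' ∧ |C| * ε' ≤ 1 ∧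
        4 * P.card * b * (C * ε') ^ 2 < ε := by
      have hl : Tendsto (fun x : ℝ => |C| * x) (𝓝[>] 0) (𝓝 0) := by
        have : Tendsto (fun x : ℝ => |C| * x) (𝓝 0) (𝓝 (|C| * 0)) :=
          (continuous_const.mul continuous_id).tendsto 0
        rw [mul_zero] at this
        exact this.mono_left nhdsWithin_le_nhds
      have hl2 : Tendsto (fun x : ℝ => 4 * P.card * b * (C * x) ^ 2) (𝓝[>] 0) (𝓝 0) := by
        have : Tendsto (fun x : ℝ => 4 * P.card * b * (C * x) ^ 2) (𝓝 0)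
            (𝓝 (4 * P.card * b * (C * 0) ^ 2)) :=
          (by fun_prop : Continuous fun x : ℝ => 4 * P.card * b * (C * x) ^ 2).tendsto 0
        have e0 : 4 * P.card * b * (C * 0) ^ 2 = 0 := by ring
        rw [e0] at this
        exact this.mono_left nhdsWithin_le_nhds
      obtain ⟨x, ⟨h1, h2⟩, h3⟩ := (((hl.eventually (ge_mem_nhds one_pos)).and
        (hl2.eventually (gt_mem_nhds hε))).and self_mem_nhdsWithin).exists
      exact ⟨x, h3, h1, h2⟩
    obtain ⟨N0, hN0⟩ := eventually_atTop.1 ((ht ε' hε'0).and (eventually_ge_atTop 1))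
    refine ⟨N0, fun N hN => ?_⟩
    obtain ⟨h1, h2⟩ := hN0 N hN
    have hNpos : (0 : ℝ) < N := by exact_mod_cast h2
    have hN1 : (1 : ℝ) ≤ N := by exact_mod_cast h2
    have h3 := sum_cosh_le_PR hb h2 P (C := C) (m := ε')
      (u := fun e => t N e - (N : ℝ)⁻¹ * smp F N e.1 e.2.1) (fun e => by
        have := h1 e
        have e1 : t N e - (N : ℝ)⁻¹ * smp F N e.1 e.2.1 =
            (N * t N e - smp F N e.1 e.2.1) / N := by
          field_simp
        rw [e1, abs_div, abs_of_pos hNpos]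
        exact div_le_div_of_nonneg_right this hNpos.le) (by linarith)
    have h4 : 0 ≤ ∑ e : KR (PR P N), b / 2 *
        (Real.cosh (C * (t N e - (N : ℝ)⁻¹ * smp F N e.1 e.2.1)) - 1) :=
      Finset.sum_nonneg fun e _ => mul_nonneg (by positivity)
        (by have := Real.one_le_cosh (C * (t N e - (N : ℝ)⁻¹ * smp F N e.1 e.2.1)); linarith)
    rw [Real.dist_eq, sub_zero, abs_of_nonneg h4]
    linarith

/-- the limit at real twists -/
theorem real_tw_PR {b : ℝ} (hb : 0 < b) {F : MF} (hF : DF F) (P : Finset (ℤ × ℤ))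
    {t : ∀ N : ℕ, KR (PR P N) → ℝ} (ht : ApxP P F t) :
    Tendsto (fun N => Zr muInf (fun _ : KR (PR P N) => b / 2) (chiR (PR P N)) (t N) /
      Zr muInf (fun _ : KR (PR P N) => b / 2) (chiR (PR P N)) 0) atTop
      (𝓝 (Real.exp (-(helicity b * enP P F / 2)))) := by
  have hJ : ∀ (N : ℕ) (_e : KR (PR P N)), 0 ≤ b / 2 := fun _ _ => by positivity
  have hs : ∀ s : ℝ, Tendsto (fun N => rho muInf (fun _ : KR (PR P N) => b / 2)
      (chiR (PR P N)) (s • t N)) atTop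
      (𝓝 (Real.exp (s ^ 2 * (helicity b * enP P F) / 2))) := by
    intro s
    have h := (Real.continuous_exp.tendsto _).comp (imag_tw_PR hb hF P ht s)
    refine h.congr fun N => ?_
    exact exp_lr muInf _ _ G_div2 (hJ N) _
  have hbd : ∀ R : ℝ, 0 < R → ∃ M : ℝ, ∀ᶠ N : ℕ in atTop, ∀ s : ℝ, |s| ≤ R →
      rho muInf (fun _ : KR (PR P N) => b / 2) (chiR (PR P N)) (s • t N) ≤ M := by
    intro R hR
    obtain ⟨K, hK⟩ := exists_sqK P
    obtain ⟨M0, hM0⟩ := hF.cont.bd K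
    obtain ⟨M1, hM1⟩ : ∃ M1, M1 = |M0| + 1 := ⟨_, rfl⟩
    have hM1p : 0 < M1 := by rw [hM1]; positivity
    refine ⟨Real.exp (4 * P.card * b * (R * M1) ^ 2), ?_⟩
    have hlarge : ∀ᶠ N : ℕ in atTop, R * M1 ≤ N :=
      tendsto_natCast_atTop_atTop.eventually (eventually_ge_atTop (R * M1))
    filter_upwards [ht 1 one_pos, eventually_ge_atTop 1, hlarge] with N h1 h2 h3 s hsR
    have hNpos : (0 : ℝ) < N := by exact_mod_cast h2
    refine (rho_trivial muInf _ _ (hJ N) _).trans (Real.exp_le_exp.2 ?_)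
    have hu : ∀ e : KR (PR P N), |t N e| ≤ M1 / N := by
      intro e
      rw [le_div_iff₀ hNpos]
      have g1 := h1 e
      have g2 : |smp F N e.1 e.2.1| ≤ |M0| := by
        have g0 : (e.1 : ℤ × ℤ) ∈ bx (K * N) := by
          have g5 := (mem_PR h2).1 e.1.2
          exact tile_sub_bx (hK g5) h2 ((mem_tile h2).2 rfl)
        have g3 := center_bd (K := K) h2 g0
        exact (hM0 _ _ _ g3.1 g3.2).trans (le_abs_self _)
      have g4 : |t N e| * N = |N * t N e| := by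
        rw [abs_mul, abs_of_pos hNpos, mul_comm]
      rw [g4, hM1]
      have g5 := abs_sub_abs_le_abs_sub (N * t N e) (smp F N e.1 e.2.1)
      linarith
    have h4 := sum_cosh_le_PR hb h2 P (C := s) (m := M1) (u := t N) hu
      ((mul_le_mul_of_nonneg_right hsR hM1p.le).trans h3)
    refine le_trans (le_of_eq ?_) (h4.trans ?_)
    · refine Finset.sum_congr rfl fun e _ => ?_
      simp only [Pi.smul_apply, smul_eq_mul]
    · have h5 : (s * M1) ^ 2 ≤ (R * M1) ^ 2 := by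
        rw [mul_pow, mul_pow, ← sq_abs s]
        have := pow_le_pow_left₀ (abs_nonneg s) hsR 2
        exact mul_le_mul_of_nonneg_right this (sq_nonneg _)
      have h6 : (0 : ℝ) ≤ 4 * P.card * b := by positivity
      exact mul_le_mul_of_nonneg_left h5 h6
  exact real_lim muInf G_div2 (fun N _ => b / 2) (fun N => chiR (PR P N)) hJ t hs hbd

end Vale.Agent.P159.R2.H130
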